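import Vale.Agent.Lib.P369.FockDiag

namespace Vale.Agent.Results.P369.A_fockdiag

open Vale.Agent.Lib.P369

/-- The entropy photon number inequality holds for all `n`-mode Fock-diagonal inputs with finite
mean photon number, with no monotonicity assumption on the photon number distributions. -/
theorem result {η : ℝ} (h0 : 0 ≤ η) (h1 : η ≤ 1) {n : ℕ} (hn : 1 ≤ n)
    {p q : (Fin n → ℕ) → ℝ} (hp : NFock p) (hq : NFock q) :
    η * nPhotonNumber p + (1 - η) * nPhotonNumber q ≤ nPhotonNumber (nOutput η p q) :=
  epni_fock h0 h1 hn hp hq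

end Vale.Agent.Results.P369.A_fockdiag
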