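import Vale.Agent.Lib.P369.Final

namespace Vale.Agent.Results.P369.A_main

open Vale.Agent.Lib.P369

/-- The entropy photon number inequality holds for one-mode Fock-diagonal inputs whose photon
number distributions are nonincreasing and have finite mean. -/
theorem result {η : ℝ} (h0 : 0 ≤ η) (h1 : η ≤ 1) {p q : ℕ → ℝ} (hp : IsPassive p)
    (hq : IsPassive q) :
    η * photonNumber p + (1 - η) * photonNumber q ≤ photonNumber (output η p q) :=
  epni_passive h0 h1 hp hq

end Vale.Agent.Results.P369.A_main
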