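import Vale.Agent.Lib.P369.FinalN

namespace Vale.Agent.Results.P369.A_nmode

open Vale.Agent.Lib.P369

/-- The entropy photon number inequality holds for all numbers `n` of modes, for `n`-mode
Fock-diagonal inputs whose photon number distributions on `ℕ^n` are nonincreasing in each
coordinate and have finite mean. -/
theorem result {η : ℝ} (h0 : 0 ≤ η) (h1 : η ≤ 1) {n : ℕ} (hn : 1 ≤ n)
    {p q : (Fin n → ℕ) → ℝ} (hp : NPassive p) (hq : NPassive q) :
    η * nPhotonNumber p + (1 - η) * nPhotonNumber q ≤ nPhotonNumber (nOutput η p q) :=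
  epni_nmode h0 h1 hn hp hq

end Vale.Agent.Results.P369.A_nmode
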